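/-
The Mazur-Ulam property for spaces with a nontrivial L-projection (helper94).

`X` is a real normed space and `P` is a linear idempotent with `‖x‖ = ‖P x‖ + ‖x - P x‖`, `P ≠ 0`,
`P ≠ 1`: the space is the l_1 sum of the two nonzero subspaces `range P` and `ker P`.  Every surjective
isometry of the unit sphere of `X` onto the unit sphere of a real normed space `Y` extends to a
surjective linear isometry.

Proof.  For unit `z` in the range, unit `w` in the kernel, `f z` and `± f w` lie on a common face.  The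
preimage of `l f z + m f w` is `l z + m w` by Theorem A of `Inf/Cofacial`.  So `f` is the sum of the
radial extensions on both pieces.  Testing against `± f w` shows that the radial extension on each piece
is an isometry with range a subspace, hence linear by Mazur-Ulam.
-/
import Vale.Agent.Lib.P084.Inf.Cofacial

namespace Vale.Agent.Lib.P084.LSum

open Vale.Agent.Lib.P084.UC Vale.Agent.Lib.P084.Inf

variable {X Y : Type*} [NormedAddCommGroup X] [NormedSpace ℝ X] [NormedAddCommGroup Y]
  [NormedSpace ℝ Y]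

/-- An L-projection: a linear idempotent that splits the norm additively. -/
structure IsLProj (P : X →ₗ[ℝ] X) : Prop where
  idem : ∀ x, P (P x) = P x
  norm_split : ∀ x, ‖x‖ = ‖P x‖ + ‖x - P x‖

namespace IsLProj

variable {P : X →ₗ[ℝ] X}

theorem norm_add_eq (hP : IsLProj P) {z w : X} (hz : P z = z) (hw : P w = 0) :
    ‖z + w‖ = ‖z‖ + ‖w‖ := by
  have h := hP.norm_split (z + w)
  rw [map_add, hz, hw, add_zero, add_sub_cancel_left] at h
  exact h

/-- The complementary projection. -/
def compl (P : X →ₗ[ℝ] X) : X →ₗ[ℝ] X := LinearMap.id - P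

@[simp] theorem compl_apply (x : X) : compl P x = x - P x := rfl

theorem isLProj_compl (hP : IsLProj P) : IsLProj (compl P) := by
  refine ⟨fun x => ?_, fun x => ?_⟩
  · simp only [compl_apply, map_sub, hP.idem]
    abel
  · have h := hP.norm_split x
    simp only [compl_apply]
    have e : x - (x - P x) = P x := by abel
    rw [e, h]
    ring

end IsLProj

section Key

variable {P : X →ₗ[ℝ] X} {f : X → Y}

/-- The cofacial map on the range, packaged on the normed subspace. -/
theorem comb_proj_eq (hP : IsLProj P) (hf : IsSphereIso f) {w : X} (hw1 : ‖w‖ = 1) (hw0 : P w = 0)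
    {l m : ℝ} (hl : 0 < l) (hm : 0 < m) (hlm : l + m = 1) {z x : X} (hz1 : ‖z‖ = 1) (hzP : P z = z)
    (hx1 : ‖x‖ = 1) (hx : f x = l • f z + m • f w) : P x = l • z := by
  classical
  -- the submodule
  let Z : Submodule ℝ X := LinearMap.ker (LinearMap.id - P)
  have memZ : ∀ v : X, v ∈ Z ↔ P v = v := by
    intro v
    simp only [Z, LinearMap.mem_ker, LinearMap.sub_apply, LinearMap.id_apply, sub_eq_zero]
    exact eq_comm
  -- basic facts about the pair
  have hodd : ∀ u : X, ‖u‖ = 1 → f (-u) = - f u := fun u hu => odd_of_isSphereIso hf hu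
  have hfac : ∀ u : X, ‖u‖ = 1 → P u = u → ‖f u + f w‖ = 2 ∧ ‖f u - f w‖ = 2 := by
    intro u hu hPu
    have h1 : ‖u - w‖ = 2 := by
      have := hP.norm_add_eq (z := u) (w := -w) hPu (by rw [map_neg, hw0, neg_zero])
      rw [← sub_eq_add_neg, norm_neg, hu, hw1] at this
      rw [this]; norm_num
    have h2 : ‖u + w‖ = 2 := by
      have := hP.norm_add_eq (z := u) (w := w) hPu hw0
      rw [hu, hw1] at this
      rw [this]; norm_num
    have e1 : ‖f u - f w‖ = 2 := by rw [hf.iso u w hu hw1, h1]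
    have e2 : ‖f u + f w‖ = 2 := by
      have := hf.iso u (-w) hu (by rw [norm_neg, hw1])
      rw [hodd w hw1, sub_neg_eq_add, sub_neg_eq_add, h2] at this
      exact this
    exact ⟨e2, e1⟩
  -- decomposition lemma: for any unit u in the range and unit x' above l f u + m f w
  have key : ∀ (u x' : X), ‖u‖ = 1 → P u = u → ‖x'‖ = 1 → f x' = l • f u + m • f w →
      ‖P x'‖ = l ∧ ‖x' - P x'‖ = m ∧ ‖u + l⁻¹ • P x'‖ = 2 := by
    intro u x' hu hPu hx'1 hx'
    have hfu := hf.norm_eq u hu
    have hfw := hf.norm_eq w hw1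
    obtain ⟨h2p, h2m⟩ := hfac u hu hPu
    set ζ := P x' with hζ
    set ξ := x' - P x' with hξ
    have hPζ : P ζ = ζ := hP.idem x'
    have hPξ : P ξ = 0 := by rw [hξ, map_sub, hP.idem, sub_self]
    have hsplit : x' = ζ + ξ := by rw [hζ, hξ]; abel
    have hn1 : ‖ζ‖ + ‖ξ‖ = 1 := by
      have := hP.norm_split x'
      rw [hx'1] at this
      exact this.symm
    -- distance to u
    have hd1 : ‖ζ - u‖ + ‖ξ‖ = 2 * m := by
      have e1 : ‖x' - u‖ = ‖ζ - u‖ + ‖ξ‖ := by
        have : x' - u = (ζ - u) + ξ := by rw [hsplit]; abel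
        rw [this]
        exact hP.norm_add_eq (by rw [map_sub, hPζ, hPu]) hPξ
      have e2 : ‖x' - u‖ = 2 * m := by
        rw [← hf.iso x' u hx'1 hu, hx']
        have : l • f u + m • f w - f u = m • (f w - f u) := by
          have hl' : l = 1 - m := by linarith
          rw [hl']; module
        rw [this, norm_smul, Real.norm_of_nonneg hm.le, norm_sub_rev, h2m]
        ring
      rw [← e1, e2]
    -- distance to w
    have hd2 : ‖ζ‖ + ‖ξ - w‖ = 2 * l := by
      have e1 : ‖x' - w‖ = ‖ζ‖ + ‖ξ - w‖ := by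
        have : x' - w = ζ + (ξ - w) := by rw [hsplit]; abel
        rw [this]
        exact hP.norm_add_eq hPζ (by rw [map_sub, hPξ, hw0, sub_zero])
      have e2 : ‖x' - w‖ = 2 * l := by
        rw [← hf.iso x' w hx'1 hw1, hx']
        have : l • f u + m • f w - f w = l • (f u - f w) := by
          have hm' : m = 1 - l := by linarith
          rw [hm']; module
        rw [this, norm_smul, Real.norm_of_nonneg hl.le, h2m]
        ring
      rw [← e1, e2]
    -- distance to -u
    have hd3 : ‖ζ + u‖ + ‖ξ‖ = 2 := by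
      have e1 : ‖x' + u‖ = ‖ζ + u‖ + ‖ξ‖ := by
        have : x' + u = (ζ + u) + ξ := by rw [hsplit]; abel
        rw [this]
        exact hP.norm_add_eq (by rw [map_add, hPζ, hPu]) hPξ
      have e2 : ‖x' + u‖ = 2 := by
        have h3 := hf.iso x' (-u) hx'1 (by rw [norm_neg, hu])
        rw [hodd u hu, sub_neg_eq_add, sub_neg_eq_add, hx'] at h3
        rw [← h3]
        apply le_antisymm
        · calc _ ≤ ‖l • f u + m • f w‖ + ‖f u‖ := norm_add_le _ _
            _ = 2 := by
              rw [norm_comb_eq_one hfu hfw h2p hl.le hm.le hlm, hfu]; norm_num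
        · have hne : f u + f w ≠ 0 := by
            intro h0
            rw [h0, norm_zero] at h2p
            norm_num at h2p
          obtain ⟨φ, hφ1, hφ2⟩ := exists_dual_vector ℝ (f u + f w) (norm_ne_zero_iff.mpr hne)
          have hφu : φ (f u) ≤ 1 := by
            have := (le_abs_self (φ (f u))).trans
              (φ.le_opNorm (f u) |>.trans_eq (by rw [hφ1, hfu, one_mul]))
            exact this
          have hφw : φ (f w) ≤ 1 := by
            have := (le_abs_self (φ (f w))).trans
              (φ.le_opNorm (f w) |>.trans_eq (by rw [hφ1, hfw, one_mul]))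
            exact this
          have hsum : φ (f u) + φ (f w) = 2 := by
            have h := hφ2
            rw [map_add, h2p] at h
            exact_mod_cast h
          have h1 : φ (f u) = 1 := by linarith
          have h2 : φ (f w) = 1 := by linarith
          have h4 : φ (l • f u + m • f w + f u) = 2 := by
            rw [map_add, map_add, map_smul, map_smul, h1, h2]
            simp only [smul_eq_mul, mul_one]
            linarith
          have h5 := φ.le_opNorm (l • f u + m • f w + f u)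
          rw [hφ1, one_mul, h4, Real.norm_eq_abs] at h5
          have h6 : (2 : ℝ) ≤ |(2 : ℝ)| := le_abs_self _
          exact h6.trans h5
      rw [← e1, e2]
    -- inequalities
    have h1 : ‖ξ‖ ≤ m := by
      have : 1 - ‖ζ‖ ≤ ‖ζ - u‖ := by
        have := norm_sub_norm_le u ζ
        rw [hu] at this
        rw [norm_sub_rev ζ u]
        exact this
      linarith
    have h2 : ‖ζ‖ ≤ l := by
      have : 1 - ‖ξ‖ ≤ ‖ξ - w‖ := by
        have := norm_sub_norm_le w ξ
        rw [hw1] at this
        rw [norm_sub_rev ξ w]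
        exact this
      linarith
    have h3 : ‖ζ‖ = l := by linarith
    have h4 : ‖ξ‖ = m := by linarith
    refine ⟨h3, h4, ?_⟩
    -- cofaciality
    have h5 : ‖ζ + u‖ = 1 + l := by linarith
    have hne : ζ + u ≠ 0 := by
      intro h0
      rw [h0, norm_zero] at h5
      linarith
    obtain ⟨τ, hτ1, hτ2⟩ := exists_dual_vector ℝ (ζ + u) (norm_ne_zero_iff.mpr hne)
    have hτu : τ u ≤ 1 := by
      have := (le_abs_self (τ u)).trans (τ.le_opNorm u |>.trans_eq (by rw [hτ1, hu, one_mul]))
      exact this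
    have hτζ : τ ζ ≤ l := by
      have := (le_abs_self (τ ζ)).trans (τ.le_opNorm ζ |>.trans_eq (by rw [hτ1, h3, one_mul]))
      exact this
    have hsum : τ ζ + τ u = 1 + l := by
      have h := hτ2
      rw [map_add, h5] at h
      exact_mod_cast h
    have h6 : τ u = 1 := by linarith
    have h7 : τ ζ = l := by linarith
    have hun : ‖l⁻¹ • ζ‖ = 1 := by
      rw [norm_smul, h3, norm_inv, Real.norm_of_nonneg hl.le, inv_mul_cancel₀ hl.ne']
    apply le_antisymm
    · calc _ ≤ ‖u‖ + ‖l⁻¹ • ζ‖ := norm_add_le _ _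
        _ = 2 := by rw [hu, hun]; norm_num
    · have h8 : τ (u + l⁻¹ • ζ) = 2 := by
        rw [map_add, map_smul, h6, h7]
        simp only [smul_eq_mul]
        rw [inv_mul_cancel₀ hl.ne']
        norm_num
      have h9 := τ.le_opNorm (u + l⁻¹ • ζ)
      rw [hτ1, one_mul, h8, Real.norm_eq_abs] at h9
      have h10 : (2 : ℝ) ≤ |(2 : ℝ)| := le_abs_self _
      exact h10.trans h9
  -- the inverse on Y
  have hsurj := hf.surj
  have hinv : ∀ u : X, ‖u‖ = 1 → P u = u → ∃ x' : X, ‖x'‖ = 1 ∧ f x' = l • f u + m • f w := by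
    intro u hu hPu
    have hnorm := norm_comb_eq_one (hf.norm_eq u hu) (hf.norm_eq w hw1) (hfac u hu hPu).1 hl.le
      hm.le hlm
    exact hsurj _ hnorm
  -- the self map of the unit sphere of Z
  let lift : Z → X := fun u =>
    if h : ‖(u : X)‖ = 1 then Classical.choose (hinv u h ((memZ u).1 u.2)) else 0
  have lift_spec : ∀ u : Z, ‖(u : X)‖ = 1 →
      ‖lift u‖ = 1 ∧ f (lift u) = l • f (u : X) + m • f w := by
    intro u hu
    simp only [lift, dif_pos hu]
    exact Classical.choose_spec (hinv u hu ((memZ u).1 u.2))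
  have hmemξ : ∀ v : X, l⁻¹ • P v ∈ Z := by
    intro v
    rw [memZ, map_smul, hP.idem]
  let Ξ : Z → Z := fun u => ⟨l⁻¹ • P (lift u), hmemξ _⟩
  have hΞ1 : ∀ u : Z, ‖u‖ = 1 → ‖Ξ u‖ = 1 := by
    intro u hu
    have hu' : ‖(u : X)‖ = 1 := hu
    obtain ⟨hs1, hs2⟩ := lift_spec u hu'
    obtain ⟨h1, -, -⟩ := key u (lift u) hu' ((memZ u).1 u.2) hs1 hs2
    change ‖l⁻¹ • P (lift u)‖ = 1
    rw [norm_smul, h1, norm_inv, Real.norm_of_nonneg hl.le, inv_mul_cancel₀ hl.ne']
  have hΞ2 : ∀ u v : Z, ‖u‖ = 1 → ‖v‖ = 1 → ‖Ξ u - Ξ v‖ ≤ ‖u - v‖ := by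
    intro u v hu hv
    have hu' : ‖(u : X)‖ = 1 := hu
    have hv' : ‖(v : X)‖ = 1 := hv
    obtain ⟨hs1, hs2⟩ := lift_spec u hu'
    obtain ⟨ht1, ht2⟩ := lift_spec v hv'
    have e1 : ‖lift u - lift v‖ = l * ‖(u : X) - v‖ := by
      rw [← hf.iso _ _ hs1 ht1, hs2, ht2]
      have : l • f (u : X) + m • f w - (l • f (v : X) + m • f w) = l • (f (u : X) - f (v : X)) := by
        module
      rw [this, norm_smul, Real.norm_of_nonneg hl.le, hf.iso _ _ hu' hv']
    have e2 : ‖P (lift u) - P (lift v)‖ ≤ ‖lift u - lift v‖ := by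
      have h := hP.norm_split (lift u - lift v)
      rw [map_sub] at h
      have h0 := norm_nonneg (lift u - lift v - (P (lift u) - P (lift v)))
      linarith
    change ‖l⁻¹ • P (lift u) - l⁻¹ • P (lift v)‖ ≤ ‖(u : X) - v‖
    rw [← smul_sub, norm_smul, norm_inv, Real.norm_of_nonneg hl.le]
    calc l⁻¹ * ‖P (lift u) - P (lift v)‖ ≤ l⁻¹ * (l * ‖(u : X) - v‖) := by
          apply mul_le_mul_of_nonneg_left (e2.trans_eq e1) (inv_nonneg.mpr hl.le)
      _ = ‖(u : X) - v‖ := by
          rw [← mul_assoc, inv_mul_cancel₀ hl.ne', one_mul]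
  have hΞ3 : ∀ u : Z, ‖u‖ = 1 → ‖u + Ξ u‖ = 2 := by
    intro u hu
    have hu' : ‖(u : X)‖ = 1 := hu
    obtain ⟨hs1, hs2⟩ := lift_spec u hu'
    obtain ⟨-, -, h3⟩ := key u (lift u) hu' ((memZ u).1 u.2) hs1 hs2
    exact h3
  -- apply Theorem A
  let z' : Z := ⟨z, (memZ z).2 hzP⟩
  have hz'1 : ‖z'‖ = 1 := hz1
  have hfix : Ξ z' = z' := eq_self_of_cofacial hΞ1 hΞ2 hΞ3 hz'1
  have hfix' : l⁻¹ • P (lift z') = z := congrArg Subtype.val hfix
  obtain ⟨hs1, hs2⟩ := lift_spec z' hz1
  -- uniqueness of the preimage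
  have huniq : lift z' = x := by
    have h0 : ‖lift z' - x‖ = 0 := by
      rw [← hf.iso _ _ hs1 hx1, hs2, hx]
      simp [z']
    exact sub_eq_zero.mp (norm_eq_zero.mp h0)
  rw [huniq] at hfix'
  rw [← hfix', smul_smul, mul_inv_cancel₀ hl.ne', one_smul]

/-- The main identity on segments joining the two spheres. -/
theorem map_comb (hP : IsLProj P) (hf : IsSphereIso f) {z w : X} (hz1 : ‖z‖ = 1) (hzP : P z = z)
    (hw1 : ‖w‖ = 1) (hw0 : P w = 0) {l m : ℝ} (hl : 0 < l) (hm : 0 < m) (hlm : l + m = 1) :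
    f (l • z + m • w) = l • f z + m • f w := by
  -- the comb is a unit vector in Y
  have hodd : f (-w) = - f w := odd_of_isSphereIso hf hw1
  have h2 : ‖f z + f w‖ = 2 := by
    have h1 : ‖z + w‖ = 2 := by
      have := hP.norm_add_eq (z := z) (w := w) hzP hw0
      rw [hz1, hw1] at this
      rw [this]; norm_num
    have := hf.iso z (-w) hz1 (by rw [norm_neg, hw1])
    rw [hodd, sub_neg_eq_add, sub_neg_eq_add, h1] at this
    exact this
  have hnorm : ‖l • f z + m • f w‖ = 1 :=
    norm_comb_eq_one (hf.norm_eq z hz1) (hf.norm_eq w hw1) h2 hl.le hm.le hlm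
  obtain ⟨x, hx1, hx⟩ := hf.surj _ hnorm
  have hP1 : P x = l • z := comb_proj_eq hP hf hw1 hw0 hl hm hlm hz1 hzP hx1 hx
  have hQ := hP.isLProj_compl
  have hQw : IsLProj.compl P w = w := by simp [hw0]
  have hQz : IsLProj.compl P z = 0 := by simp [hzP]
  have hx' : f x = m • f w + l • f z := by rw [hx, add_comm]
  have hQ1 : IsLProj.compl P x = m • w :=
    comb_proj_eq hQ hf hz1 hQz hm hl (by linarith) hw1 hQw hx1 hx'
  have hsum : x = l • z + m • w := by
    have : x = P x + IsLProj.compl P x := by simp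
    rw [this, hP1, hQ1]
  rw [← hsum, hx]

end Key

end Vale.Agent.Lib.P084.LSum
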