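/-
The Mazur-Ulam property for spaces with a nontrivial L-projection: radial extensions and assembly.
-/
import Vale.Agent.Lib.P084.LSum.Main

namespace Vale.Agent.Lib.P084.LSum

open Vale.Agent.Lib.P084.UC Vale.Agent.Lib.P084.Inf

variable {X Y : Type*} [NormedAddCommGroup X] [NormedSpace ℝ X] [NormedAddCommGroup Y]
  [NormedSpace ℝ Y]

/-- Radial extension of a map defined on the unit sphere. -/
noncomputable def rad (f : X → Y) (v : X) : Y := ‖v‖ • f (‖v‖⁻¹ • v)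

section Rad

variable {f : X → Y}

@[simp] theorem rad_zero : rad f 0 = 0 := by simp [rad]

theorem rad_unit {v : X} (hv : ‖v‖ = 1) : rad f v = f v := by simp [rad, hv]

theorem norm_inv_smul' {v : X} (hv : v ≠ 0) : ‖‖v‖⁻¹ • v‖ = 1 := by
  rw [norm_smul, norm_inv, norm_norm, inv_mul_cancel₀ (norm_ne_zero_iff.mpr hv)]

theorem rad_smul_pos (t : ℝ) (ht : 0 < t) (v : X) : rad f (t • v) = t • rad f v := by
  by_cases hv : v = 0
  · simp [hv]
  have hv' : ‖v‖ ≠ 0 := norm_ne_zero_iff.mpr hv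
  have hn : ‖t • v‖ = t * ‖v‖ := by rw [norm_smul, Real.norm_of_nonneg ht.le]
  have e : ‖t • v‖⁻¹ • (t • v) = ‖v‖⁻¹ • v := by
    rw [hn, smul_smul, mul_inv, mul_comm t⁻¹, mul_assoc, inv_mul_cancel₀ ht.ne', mul_one]
  simp only [rad]
  rw [e, hn, smul_smul]

theorem norm_rad (hf : IsSphereIso f) (v : X) : ‖rad f v‖ = ‖v‖ := by
  by_cases hv : v = 0
  · simp [hv]
  simp only [rad]
  rw [norm_smul, hf.norm_eq _ (norm_inv_smul' hv), norm_norm, mul_one]

theorem rad_neg (hf : IsSphereIso f) (v : X) : rad f (-v) = - rad f v := by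
  by_cases hv : v = 0
  · simp [hv]
  simp only [rad, norm_neg]
  rw [smul_neg, odd_of_isSphereIso hf (norm_inv_smul' hv), smul_neg]

theorem rad_smul (hf : IsSphereIso f) (t : ℝ) (v : X) : rad f (t • v) = t • rad f v := by
  rcases lt_trichotomy t 0 with ht | ht | ht
  · have e : t • v = (-t) • (-v) := by rw [smul_neg, neg_smul, neg_neg]
    rw [e, rad_smul_pos _ (by linarith), rad_neg hf, smul_neg, neg_smul, neg_neg]
  · simp [ht]
  · exact rad_smul_pos t ht v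

theorem rad_smul_unit (hf : IsSphereIso f) (t : ℝ) {v : X} (hv : ‖v‖ = 1) :
    rad f (t • v) = t • f v := by
  rw [rad_smul hf, rad_unit hv]

end Rad

section Main

variable {P : X →ₗ[ℝ] X} {f : X → Y}

/-- `f` is the sum of the two radial extensions. -/
theorem map_eq_add (hP : IsLProj P) (hf : IsSphereIso f) {x : X} (hx : ‖x‖ = 1) :
    f x = rad f (P x) + rad f (x - P x) := by
  have hs := hP.norm_split x
  by_cases h0 : P x = 0
  · have e : x - P x = x := by rw [h0, sub_zero]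
    rw [e, h0, rad_zero, zero_add, rad_unit hx]
  by_cases h1 : x - P x = 0
  · have e : P x = x := (sub_eq_zero.mp h1).symm
    rw [h1, e, rad_zero, add_zero, rad_unit hx]
  have hl : 0 < ‖P x‖ := norm_pos_iff.mpr h0
  have hm : 0 < ‖x - P x‖ := norm_pos_iff.mpr h1
  have hz1 := norm_inv_smul' h0
  have hw1 := norm_inv_smul' h1
  have hzP : P (‖P x‖⁻¹ • P x) = ‖P x‖⁻¹ • P x := by rw [map_smul, hP.idem]
  have hwP : P (‖x - P x‖⁻¹ • (x - P x)) = 0 := by
    rw [map_smul, map_sub, hP.idem, sub_self, smul_zero]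
  have h := map_comb hP hf hz1 hzP hw1 hwP hl hm (by rw [← hs, hx])
  have e : ‖P x‖ • (‖P x‖⁻¹ • P x) + ‖x - P x‖ • (‖x - P x‖⁻¹ • (x - P x)) = x := by
    rw [smul_smul, smul_smul, mul_inv_cancel₀ hl.ne', mul_inv_cancel₀ hm.ne', one_smul, one_smul]
    abel
  rw [e] at h
  simpa only [rad] using h

theorem map_add_smul (hP : IsLProj P) (hf : IsSphereIso f) {z w : X} (hzP : P z = z)
    (hw1 : ‖w‖ = 1) (hw0 : P w = 0) {t : ℝ} (hn : ‖z‖ + |t| = 1) :
    f (z + t • w) = rad f z + t • f w := by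
  have hPx : P (z + t • w) = z := by rw [map_add, map_smul, hw0, smul_zero, add_zero, hzP]
  have hx : ‖z + t • w‖ = 1 := by
    rw [hP.norm_add_eq hzP (by rw [map_smul, hw0, smul_zero]), norm_smul, hw1, mul_one,
      Real.norm_eq_abs, hn]
  rw [map_eq_add hP hf hx, hPx, add_sub_cancel_left, rad_smul_unit hf t hw1]

/-- Additivity of the norm on the two radial parts. -/
theorem norm_rad_add (hP : IsLProj P) (hf : IsSphereIso f) {z w : X} (hz : P z = z) (hw : P w = 0) :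
    ‖rad f z + rad f w‖ = ‖z‖ + ‖w‖ := by
  by_cases h : ‖z‖ + ‖w‖ = 0
  · have hz0 : ‖z‖ = 0 := by linarith [norm_nonneg z, norm_nonneg w]
    have hw0 : ‖w‖ = 0 := by linarith [norm_nonneg z, norm_nonneg w]
    rw [norm_eq_zero.mp hz0, norm_eq_zero.mp hw0]
    simp
  have hr : 0 < ‖z‖ + ‖w‖ := lt_of_le_of_ne (add_nonneg (norm_nonneg _) (norm_nonneg _)) (Ne.symm h)
  set r := ‖z‖ + ‖w‖ with hrdef
  have hx : ‖r⁻¹ • (z + w)‖ = 1 := by
    rw [norm_smul, hP.norm_add_eq hz hw, norm_inv, Real.norm_of_nonneg hr.le, ← hrdef,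
      inv_mul_cancel₀ hr.ne']
  have hPx : P (r⁻¹ • (z + w)) = r⁻¹ • z := by rw [map_smul, map_add, hz, hw, add_zero]
  have e1 : r⁻¹ • (z + w) - r⁻¹ • z = r⁻¹ • w := by rw [smul_add]; abel
  have h1 := map_eq_add hP hf hx
  rw [hPx, e1, rad_smul hf, rad_smul hf, ← smul_add] at h1
  have h2 := hf.norm_eq _ hx
  rw [h1, norm_smul, norm_inv, Real.norm_of_nonneg hr.le] at h2
  field_simp at h2
  linarith

/-- Every vector of `Y` is a sum of two radial parts. -/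
theorem exists_decomp (hP : IsLProj P) (hf : IsSphereIso f) (y : Y) :
    ∃ z w : X, P z = z ∧ P w = 0 ∧ rad f z + rad f w = y := by
  by_cases hy : y = 0
  · exact ⟨0, 0, by simp, by simp, by simp [hy]⟩
  have hy' : ‖y‖ ≠ 0 := norm_ne_zero_iff.mpr hy
  obtain ⟨x, hx1, hx⟩ := hf.surj _ (norm_inv_smul' hy)
  refine ⟨‖y‖ • P x, ‖y‖ • (x - P x), by rw [map_smul, hP.idem], ?_, ?_⟩
  · rw [map_smul, map_sub, hP.idem, sub_self, smul_zero]
  · rw [rad_smul hf, rad_smul hf, ← smul_add, ← map_eq_add hP hf hx1, hx, smul_smul,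
      mul_inv_cancel₀ hy', one_smul]

/-- The test identity. -/
theorem test_identity (hP : IsLProj P) (hf : IsSphereIso f) {z₁ z₂ w : X} (hz₁ : P z₁ = z₁)
    (hz₂ : P z₂ = z₂) (hw1 : ‖w‖ = 1) (hw0 : P w = 0) {s : ℝ} (hs : 0 < s)
    (hs1 : s * (‖z₁‖ + ‖z₂‖) ≤ 1) :
    ‖s • (rad f z₁ - rad f z₂) + (2 - s * (‖z₁‖ + ‖z₂‖)) • f w‖ =
      s * ‖z₁ - z₂‖ + (2 - s * (‖z₁‖ + ‖z₂‖)) := by
  have hn1 : 0 ≤ ‖z₁‖ := norm_nonneg _
  have hn2 : 0 ≤ ‖z₂‖ := norm_nonneg _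
  have h1 : s * ‖z₁‖ ≤ 1 := by nlinarith
  have h2 : s * ‖z₂‖ ≤ 1 := by nlinarith
  have hP1 : P (s • z₁) = s • z₁ := by rw [map_smul, hz₁]
  have hP2 : P (s • z₂) = s • z₂ := by rw [map_smul, hz₂]
  have hn₁ : ‖s • z₁‖ + |1 - s * ‖z₁‖| = 1 := by
    rw [norm_smul, Real.norm_of_nonneg hs.le, abs_of_nonneg (by linarith)]
    ring
  have hn₂ : ‖s • z₂‖ + |-(1 - s * ‖z₂‖)| = 1 := by
    rw [norm_smul, Real.norm_of_nonneg hs.le, abs_neg, abs_of_nonneg (by linarith)]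
    ring
  have hx1 := map_add_smul hP hf hP1 hw1 hw0 hn₁
  have hx2 := map_add_smul hP hf hP2 hw1 hw0 hn₂
  have hu1 : ‖s • z₁ + (1 - s * ‖z₁‖) • w‖ = 1 := by
    rw [hP.norm_add_eq hP1 (by rw [map_smul, hw0, smul_zero]), norm_smul, norm_smul, hw1, mul_one,
      Real.norm_of_nonneg hs.le, Real.norm_of_nonneg (by linarith)]
    ring
  have hu2 : ‖s • z₂ + (-(1 - s * ‖z₂‖)) • w‖ = 1 := by
    rw [hP.norm_add_eq hP2 (by rw [map_smul, hw0, smul_zero]), norm_smul, norm_smul, hw1, mul_one,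
      Real.norm_of_nonneg hs.le, Real.norm_eq_abs, abs_neg, abs_of_nonneg (by linarith)]
    ring
  have hiso := hf.iso _ _ hu1 hu2
  rw [hx1, hx2, rad_smul hf, rad_smul hf] at hiso
  have e1 : s • rad f z₁ + (1 - s * ‖z₁‖) • f w - (s • rad f z₂ + (-(1 - s * ‖z₂‖)) • f w) =
      s • (rad f z₁ - rad f z₂) + (2 - s * (‖z₁‖ + ‖z₂‖)) • f w := by module
  have e2 : s • z₁ + (1 - s * ‖z₁‖) • w - (s • z₂ + (-(1 - s * ‖z₂‖)) • w) =
      s • (z₁ - z₂) + (2 - s * (‖z₁‖ + ‖z₂‖)) • w := by module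
  rw [e1, e2] at hiso
  rw [hiso, hP.norm_add_eq (by rw [map_smul, map_sub, hz₁, hz₂]) (by rw [map_smul, hw0, smul_zero]),
    norm_smul, norm_smul, hw1, mul_one, Real.norm_of_nonneg hs.le,
    Real.norm_of_nonneg (by linarith)]

/-- The radial extension is an isometry on the range, and the range of the extension is closed under
differences. -/
theorem rad_sub (hP : IsLProj P) (hf : IsSphereIso f) {w₀ : X} (hw₀ : ‖w₀‖ = 1) (hw₀P : P w₀ = 0)
    {z₁ z₂ : X} (hz₁ : P z₁ = z₁) (hz₂ : P z₂ = z₂) :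
    ‖rad f z₁ - rad f z₂‖ = ‖z₁ - z₂‖ ∧ ∃ z₃ : X, P z₃ = z₃ ∧ rad f z₁ - rad f z₂ = rad f z₃ := by
  have hn1 : 0 ≤ ‖z₁‖ := norm_nonneg _
  have hn2 : 0 ≤ ‖z₂‖ := norm_nonneg _
  set n := ‖z₁‖ + ‖z₂‖ with hn
  have hn0 : 0 ≤ n := add_nonneg hn1 hn2
  set s := (n + 1)⁻¹ with hs
  have hspos : 0 < s := inv_pos.mpr (by linarith)
  have hsn : s * n ≤ 1 := by
    rw [hs, inv_mul_le_iff₀ (by linarith)]
    linarith
  have htest : ∀ w : X, ‖w‖ = 1 → P w = 0 →
      ‖s • (rad f z₁ - rad f z₂) + (2 - s * n) • f w‖ = s * ‖z₁ - z₂‖ + (2 - s * n) :=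
    fun w hw1 hw0 => test_identity hP hf hz₁ hz₂ hw1 hw0 hspos hsn
  obtain ⟨z₃, w₃, hz₃, hw₃, hdec⟩ := exists_decomp hP hf (rad f z₁ - rad f z₂)
  have hDn : ‖rad f z₁ - rad f z₂‖ = ‖z₃‖ + ‖w₃‖ := by
    rw [← hdec]; exact norm_rad_add hP hf hz₃ hw₃
  have hDle : ‖rad f z₁ - rad f z₂‖ ≤ n := by
    calc _ ≤ ‖rad f z₁‖ + ‖rad f z₂‖ := norm_sub_le _ _
      _ = n := by rw [norm_rad hf, norm_rad hf]
  -- the kernel part vanishes
  have hw₃0 : w₃ = 0 := by
    by_contra hne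
    have hnw : 0 < ‖w₃‖ := norm_pos_iff.mpr hne
    set ŵ := ‖w₃‖⁻¹ • w₃ with hŵ
    have hŵ1 : ‖ŵ‖ = 1 := norm_inv_smul' hne
    have hŵ0 : P ŵ = 0 := by rw [hŵ, map_smul, hw₃, smul_zero]
    have hradw : rad f w₃ = ‖w₃‖ • f ŵ := rfl
    have hŵn : P (-ŵ) = 0 := by rw [map_neg, hŵ0, neg_zero]
    have hŵn1 : ‖-ŵ‖ = 1 := by rw [norm_neg, hŵ1]
    have hodd : f (-ŵ) = - f ŵ := odd_of_isSphereIso hf hŵ1
    have hPs : P (s • z₃) = s • z₃ := by rw [map_smul, hz₃]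
    -- plus
    have h1 := htest ŵ hŵ1 hŵ0
    have e1 : s • (rad f z₁ - rad f z₂) + (2 - s * n) • f ŵ =
        rad f (s • z₃) + rad f ((s * ‖w₃‖ + (2 - s * n)) • ŵ) := by
      rw [← hdec, rad_smul hf, rad_smul_unit hf _ hŵ1, hradw]
      module
    have hcpos : 0 ≤ s * ‖w₃‖ + (2 - s * n) := by
      have : 0 ≤ s * ‖w₃‖ := by positivity
      linarith
    have h2 := norm_rad_add hP hf hPs (w := (s * ‖w₃‖ + (2 - s * n)) • ŵ)
      (by rw [map_smul, hŵ0, smul_zero])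
    rw [← e1, h1, norm_smul, norm_smul, hŵ1, mul_one, Real.norm_of_nonneg hspos.le,
      Real.norm_of_nonneg hcpos] at h2
    -- minus
    have h3 := htest (-ŵ) hŵn1 hŵn
    rw [hodd] at h3
    have e2 : s • (rad f z₁ - rad f z₂) + (2 - s * n) • (- f ŵ) =
        rad f (s • z₃) + rad f ((s * ‖w₃‖ - (2 - s * n)) • ŵ) := by
      rw [← hdec, rad_smul hf, rad_smul_unit hf _ hŵ1, hradw]
      module
    have h4 := norm_rad_add hP hf hPs (w := (s * ‖w₃‖ - (2 - s * n)) • ŵ)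
      (by rw [map_smul, hŵ0, smul_zero])
    have hsw : s * ‖w₃‖ ≤ 1 := by
      have h5 : ‖w₃‖ ≤ n := by linarith [norm_nonneg z₃]
      have h6 : s * ‖w₃‖ ≤ s * n := mul_le_mul_of_nonneg_left h5 hspos.le
      linarith
    rw [← e2, h3, norm_smul, norm_smul, hŵ1, mul_one, Real.norm_of_nonneg hspos.le,
      Real.norm_eq_abs, abs_of_nonpos (by linarith)] at h4
    have h7 : 0 < s * ‖w₃‖ := by positivity
    nlinarith
  subst hw₃0
  rw [rad_zero, add_zero] at hdec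
  refine ⟨?_, z₃, hz₃, hdec.symm⟩
  -- the norm
  have h1 := htest w₀ hw₀ hw₀P
  have e1 : s • (rad f z₁ - rad f z₂) + (2 - s * n) • f w₀ =
      rad f (s • z₃) + rad f ((2 - s * n) • w₀) := by
    rw [← hdec, rad_smul hf, rad_smul_unit hf _ hw₀]
  have h2 := norm_rad_add hP hf (z := s • z₃) (by rw [map_smul, hz₃])
    (w := (2 - s * n) • w₀) (by rw [map_smul, hw₀P, smul_zero])
  rw [← e1, h1, norm_smul, norm_smul, hw₀, mul_one, Real.norm_of_nonneg hspos.le,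
    Real.norm_of_nonneg (by linarith)] at h2
  have h3 : ‖z₁ - z₂‖ = ‖z₃‖ := by
    have : s * ‖z₁ - z₂‖ = s * ‖z₃‖ := by linarith
    exact mul_left_cancel₀ hspos.ne' this
  rw [hDn, h3]
  simp

/-- Additivity of the radial extension on the range (Mazur-Ulam). -/
theorem rad_add (hP : IsLProj P) (hf : IsSphereIso f) {w₀ : X} (hw₀ : ‖w₀‖ = 1) (hw₀P : P w₀ = 0)
    {z₁ z₂ : X} (hz₁ : P z₁ = z₁) (hz₂ : P z₂ = z₂) :
    rad f (z₁ + z₂) = rad f z₁ + rad f z₂ := by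
  classical
  -- the range of the radial extension is a subspace
  let R : Submodule ℝ Y :=
    { carrier := {y | ∃ z : X, P z = z ∧ rad f z = y}
      zero_mem' := ⟨0, by simp, by simp⟩
      add_mem' := by
        rintro _ _ ⟨a, ha, rfl⟩ ⟨b, hb, rfl⟩
        obtain ⟨-, c, hc, hc'⟩ := rad_sub hP hf hw₀ hw₀P (z₁ := a) (z₂ := -b) ha
          (by rw [map_neg, hb])
        refine ⟨c, hc, ?_⟩
        rw [← hc', rad_neg hf, sub_neg_eq_add]
      smul_mem' := by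
        rintro t _ ⟨a, ha, rfl⟩
        exact ⟨t • a, by rw [map_smul, ha], rad_smul hf t a⟩ }
  let Z : Submodule ℝ X := LinearMap.ker (LinearMap.id - P)
  have memZ : ∀ v : X, v ∈ Z ↔ P v = v := by
    intro v
    simp only [Z, LinearMap.mem_ker, LinearMap.sub_apply, LinearMap.id_apply, sub_eq_zero]
    exact eq_comm
  let A : Z → R := fun u => ⟨rad f u, ⟨u, (memZ u).1 u.2, rfl⟩⟩
  have hA : Isometry A := by
    apply Isometry.of_dist_eq
    intro u v
    change dist (rad f (u : X)) (rad f (v : X)) = dist (u : X) (v : X)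
    rw [dist_eq_norm, dist_eq_norm]
    exact (rad_sub hP hf hw₀ hw₀P ((memZ u).1 u.2) ((memZ v).1 v.2)).1
  have hAs : Function.Surjective A := by
    rintro ⟨y, z, hz, rfl⟩
    exact ⟨⟨z, (memZ z).2 hz⟩, rfl⟩
  have hA0 : A 0 = 0 := by
    apply Subtype.ext
    simp [A]
  let e : Z ≃ᵢ R := { toEquiv := Equiv.ofBijective A ⟨hA.injective, hAs⟩, isometry_toFun := hA }
  have he0 : e 0 = 0 := hA0
  let L : Z ≃ₗᵢ[ℝ] R := e.toRealLinearIsometryEquivOfMapZero he0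
  have hL : ∀ u : Z, (L u : Y) = rad f u := fun u => rfl
  let u₁ : Z := ⟨z₁, (memZ z₁).2 hz₁⟩
  let u₂ : Z := ⟨z₂, (memZ z₂).2 hz₂⟩
  have h := congrArg Subtype.val (map_add L u₁ u₂)
  simpa [hL, u₁, u₂] using h

/-- **Theorem.** A space with a nontrivial L-projection has the Mazur-Ulam property. -/
theorem exists_linearIsometryEquiv (hP : IsLProj P) (hf : IsSphereIso f) {z₀ w₀ : X}
    (hz₀ : P z₀ ≠ 0) (hw₀ : P w₀ ≠ w₀) :
    ∃ T : X ≃ₗᵢ[ℝ] Y, ∀ x : X, ‖x‖ = 1 → T x = f x := by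
  classical
  have hQ := hP.isLProj_compl
  -- unit vectors of both pieces
  have hu : z₀ - z₀ = 0 := sub_self _
  have hne1 : P z₀ ≠ 0 := hz₀
  have hne2 : w₀ - P w₀ ≠ 0 := sub_ne_zero.mpr (Ne.symm hw₀)
  have hunit1 := norm_inv_smul' hne1
  have hunit2 := norm_inv_smul' hne2
  have hu1 : IsLProj.compl P (‖P z₀‖⁻¹ • P z₀) = 0 := by
    simp [map_smul, hP.idem]
  have hu2 : P (‖w₀ - P w₀‖⁻¹ • (w₀ - P w₀)) = 0 := by
    rw [map_smul, map_sub, hP.idem, sub_self, smul_zero]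
  have haddZ : ∀ a b : X, P a = a → P b = b → rad f (a + b) = rad f a + rad f b :=
    fun a b ha hb => rad_add hP hf hunit2 hu2 ha hb
  have haddW : ∀ a b : X, P a = 0 → P b = 0 → rad f (a + b) = rad f a + rad f b := by
    intro a b ha hb
    exact rad_add hQ hf hunit1 hu1 (by simp [ha]) (by simp [hb])
  let T₀ : X →ₗ[ℝ] Y :=
    { toFun := fun x => rad f (P x) + rad f (x - P x)
      map_add' := by
        intro a b
        have e : a + b - P (a + b) = (a - P a) + (b - P b) := by rw [map_add]; abel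
        rw [e, map_add, haddZ _ _ (hP.idem a) (hP.idem b),
          haddW _ _ (by rw [map_sub, hP.idem, sub_self]) (by rw [map_sub, hP.idem, sub_self])]
        abel
      map_smul' := by
        intro t a
        have e : t • a - P (t • a) = t • (a - P a) := by rw [map_smul, smul_sub]
        simp only [RingHom.id_apply]
        rw [e, map_smul, rad_smul hf, rad_smul hf, smul_add] }
  have hT₀ : ∀ x, T₀ x = rad f (P x) + rad f (x - P x) := fun x => rfl
  let T₁ : X →ₗᵢ[ℝ] Y :=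
    { toLinearMap := T₀
      norm_map' := by
        intro x
        rw [hT₀, norm_rad_add hP hf (hP.idem x) (by rw [map_sub, hP.idem, sub_self])]
        exact (hP.norm_split x).symm }
  have hT₁ : ∀ x, T₁ x = rad f (P x) + rad f (x - P x) := fun x => rfl
  have hsurj : Function.Surjective T₁ := by
    intro y
    obtain ⟨z, w, hz, hw, rfl⟩ := exists_decomp hP hf y
    refine ⟨z + w, ?_⟩
    have e1 : P (z + w) = z := by rw [map_add, hz, hw, add_zero]
    rw [hT₁, e1, add_sub_cancel_left]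
  refine ⟨LinearIsometryEquiv.ofSurjective T₁ hsurj, fun x hx => ?_⟩
  rw [map_eq_add hP hf hx]
  rfl

end Main

end Vale.Agent.Lib.P084.LSum
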