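/-
The Mazur-Ulam property for spaces with a nontrivial L-projection: the statement on the unit spheres,
for a projection on the source or on the target.
-/
import Vale.Agent.Lib.P084.LSum.Final

namespace Vale.Agent.Lib.P084.LSum

open Vale.Agent.Lib.P084.UC Vale.Agent.Lib.P084.Inf
open Metric

variable {X Y : Type*} [NormedAddCommGroup X] [NormedSpace ℝ X] [NormedAddCommGroup Y]
  [NormedSpace ℝ Y]

/-- The ambient map of a map of the unit spheres. -/
theorem exists_ambient (f : sphere (0 : X) 1 → sphere (0 : Y) 1) (hf : Isometry f)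
    (hs : Function.Surjective f) :
    ∃ g : X → Y, IsSphereIso g ∧ ∀ x : sphere (0 : X) 1, g x = f x := by
  classical
  have hmemX : ∀ a : X, ‖a‖ = 1 → a ∈ sphere (0 : X) 1 := fun a ha => by simpa using ha
  have hmemY : ∀ y : Y, ‖y‖ = 1 → y ∈ sphere (0 : Y) 1 := fun y hy => by simpa using hy
  have hnormX : ∀ a : sphere (0 : X) 1, ‖(a : X)‖ = 1 := fun a => by simpa using a.2
  have hnormY : ∀ y : sphere (0 : Y) 1, ‖(y : Y)‖ = 1 := fun y => by simpa using y.2
  let g : X → Y := fun a => if h : ‖a‖ = 1 then (f ⟨a, hmemX a h⟩ : Y) else 0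
  have hgv : ∀ a (h : ‖a‖ = 1), g a = f ⟨a, hmemX a h⟩ := fun a h => by simp [g, h]
  have hfdist : ∀ a b : sphere (0 : X) 1, ‖(f a : Y) - f b‖ = ‖(a : X) - b‖ := by
    intro a b
    have := hf.dist_eq a b
    simpa [Subtype.dist_eq, dist_eq_norm] using this
  refine ⟨g, ⟨fun a ha => ?_, fun a b ha hb => ?_, fun y hy => ?_⟩, fun x => ?_⟩
  · rw [hgv a ha]; exact hnormY _
  · rw [hgv a ha, hgv b hb, hfdist]
  · obtain ⟨a, ha⟩ := hs ⟨y, hmemY y hy⟩
    refine ⟨a, hnormX a, ?_⟩
    rw [hgv a (hnormX a)]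
    simp [ha]
  · rw [hgv x (hnormX x)]

/-- The inverse of a map of the unit spheres, with the transfer of linear extensions. -/
theorem exists_inverse (f : sphere (0 : X) 1 → sphere (0 : Y) 1) (hf : Isometry f)
    (hs : Function.Surjective f) :
    ∃ h : sphere (0 : Y) 1 → sphere (0 : X) 1, Isometry h ∧ Function.Surjective h ∧
      ((∃ T : Y ≃ₗᵢ[ℝ] X, ∀ y : sphere (0 : Y) 1, T y = h y) →
        ∃ T : X ≃ₗᵢ[ℝ] Y, ∀ x : sphere (0 : X) 1, T x = f x) := by
  set h := Function.surjInv hs with hh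
  have hfh : ∀ y, f (h y) = y := Function.surjInv_eq hs
  have hhf : ∀ x, h (f x) = x := fun x => hf.injective (hfh (f x))
  refine ⟨h, Isometry.of_dist_eq fun a b => ?_, fun x => ⟨f x, hhf x⟩, ?_⟩
  · rw [← hf.dist_eq, hfh, hfh]
  · rintro ⟨T, hT⟩
    refine ⟨T.symm, fun x => ?_⟩
    rw [LinearIsometryEquiv.symm_apply_eq, hT (f x), hhf]

/-- A Mathlib L-projection gives an `IsLProj` linear map. -/
theorem isLProj_of_isLprojection {P : X →L[ℝ] X} (hP : IsLprojection X P) :
    IsLProj (P : X →ₗ[ℝ] X) := by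
  refine ⟨fun x => ?_, fun x => ?_⟩
  · have h := congrArg (fun Q : X →L[ℝ] X => Q x) hP.proj.eq
    simpa using h
  · have h := hP.Lnorm x
    simpa using h

/-- A surjective isometry of the unit sphere of a space with a nontrivial L-projection onto the
unit sphere of any normed space extends to a surjective linear isometry. -/
theorem extends_of_source (f : sphere (0 : X) 1 → sphere (0 : Y) 1) (hf : Isometry f)
    (hs : Function.Surjective f) {P : X →L[ℝ] X} (hP : IsLprojection X P) (h0 : P ≠ 0) (h1 : P ≠ 1) :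
    ∃ T : X ≃ₗᵢ[ℝ] Y, ∀ x : sphere (0 : X) 1, T x = f x := by
  obtain ⟨g, hg, hgf⟩ := exists_ambient f hf hs
  have hz : ∃ z, P z ≠ 0 := by
    by_contra hcon
    push_neg at hcon
    exact h0 (ContinuousLinearMap.ext hcon)
  have hw : ∃ w, P w ≠ w := by
    by_contra hcon
    push_neg at hcon
    exact h1 (ContinuousLinearMap.ext hcon)
  obtain ⟨z₀, hz₀⟩ := hz
  obtain ⟨w₀, hw₀⟩ := hw
  obtain ⟨T, hT⟩ := exists_linearIsometryEquiv (isLProj_of_isLprojection hP) hg
    (z₀ := z₀) (w₀ := w₀) hz₀ hw₀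
  refine ⟨T, fun x => ?_⟩
  have hx : ‖(x : X)‖ = 1 := by simpa using x.2
  rw [hT _ hx, hgf]

/-- The same with the L-projection on the target. -/
theorem extends_of_target (f : sphere (0 : X) 1 → sphere (0 : Y) 1) (hf : Isometry f)
    (hs : Function.Surjective f) {P : Y →L[ℝ] Y} (hP : IsLprojection Y P) (h0 : P ≠ 0) (h1 : P ≠ 1) :
    ∃ T : X ≃ₗᵢ[ℝ] Y, ∀ x : sphere (0 : X) 1, T x = f x := by
  obtain ⟨h, hh, hhs, htr⟩ := exists_inverse f hf hs
  exact htr (extends_of_source h hh hhs hP h0 h1)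

end Vale.Agent.Lib.P084.LSum
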